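import Vale.Agent.P279.Coord

/-! P279 (Nagata's conjecture): the inequality for curves whose equation is sparse in one direction,
in one of countably many given polynomial coordinate systems. -/

namespace Vale.Agent.Results.P279.SparseCurves

open Vale.Agent.P279 MvPolynomial

theorem result (r : ℕ) (S : Set Coord) (hS : S.Countable) :
    VeryGeneral r fun p => ∀ c ∈ S, ∀ (F G : MvPolynomial (Fin 2) ℂ) (m : Fin r → ℕ),
      F ≠ 0 → (∀ i, MultGE (p i) (m i) F) → G = bind₁ c.g F →
      (∀ (w : Fin 2 → ℕ) (h : ℕ),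
        (∀ k, (G.support.filter (fun a => w 0 * a 0 + w 1 * a 1 = k)).card ≤ h) →
        ∑ i, (m i + 1 - h) < (G.support.image (fun a => w 0 * a 0 + w 1 * a 1)).card) ∧
      ∑ i, m i < G.support.card ∧
      ∀ d : ℕ, (((G.support.card : ℝ) ≤ d * √r → ((∑ i, m i : ℕ) : ℝ) < d * √r) ∧
        (G.totalDegree ≤ d → ∀ h : ℕ, (d : ℝ) + r * ((h : ℝ) - 1) < d * √r →
          ((∀ k, (G.support.filter (fun a => a 0 = k)).card ≤ h) ∨
            (∀ k, (G.support.filter (fun a => a 1 = k)).card ≤ h) ∨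
            ∀ k, (G.support.filter (fun a => a 0 + a 1 = k)).card ≤ h) →
          ((∑ i, m i : ℕ) : ℝ) < d * √r)) := by
  obtain ⟨H, h1, h2⟩ := final_coord r S hS
  refine ⟨H, h1, ?_⟩
  rintro p hp c hc F G m hF hm rfl
  exact h2 p hp c hc F m hF hm

end Vale.Agent.Results.P279.SparseCurves
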